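import Mathlib
import Crest.Prelude.Def_TreeProducts

/-!
# S0169 (row 125) — probability part (helper65)

Facts about a law `ν` on `(0,∞)` with mean `1`, finite second moment, not a point mass, and about
the path products of an independent family with law `ν`.
-/

set_option autoImplicit false
set_option linter.unusedSectionVars false

namespace Crest.Agent.S0169

open MeasureTheory ProbabilityTheory Crest.AnalysisR Crest.AnalysisR.TreeProduct

section Law

variable (ν : Measure ℝ) [IsProbabilityMeasure ν]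

theorem h65_integrable_id (hmean : ∫ x, x ∂ν = 1) : Integrable (fun x : ℝ => x) ν := by
  by_contra h
  rw [integral_undef h] at hmean
  exact zero_ne_one hmean

theorem h65_ae_pos (hpos : ν (Set.Ioi 0) = 1) : ∀ᵐ x ∂ν, (0:ℝ) < x := by
  have h0 : ν (Set.Ioi (0:ℝ))ᶜ = 0 := (prob_compl_eq_zero_iff measurableSet_Ioi).mpr hpos
  rw [ae_iff]
  refine measure_mono_null ?_ h0
  intro x hx
  simpa using hx

theorem h65_integrable_abs_sub (hmean : ∫ x, x ∂ν = 1) : Integrable (fun x : ℝ => |x - 1|) ν :=
  ((h65_integrable_id ν hmean).sub (integrable_const 1)).abs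

theorem h65_integrable_sq_sub (hmean : ∫ x, x ∂ν = 1) (hm2 : Integrable (fun x : ℝ => x ^ 2) ν) :
    Integrable (fun x : ℝ => (x - 1) ^ 2) ν := by
  have h : (fun x : ℝ => (x - 1) ^ 2) = fun x => x ^ 2 - 2 * x + 1 := by
    funext x; ring
  rw [h]
  exact (hm2.sub ((h65_integrable_id ν hmean).const_mul 2)).add (integrable_const 1)

/-- The mean absolute deviation from `1` is positive, because `ν` is not a point mass. -/
theorem h65_delta_pos (hnc : ∀ c : ℝ, ν ≠ Measure.dirac c) (hmean : ∫ x, x ∂ν = 1) :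
    0 < ∫ x, |x - 1| ∂ν := by
  have hnn : 0 ≤ ∫ x, |x - 1| ∂ν := integral_nonneg (fun x => abs_nonneg _)
  rcases hnn.lt_or_eq with h | h
  · exact h
  exfalso
  have h0 : (fun x : ℝ => |x - 1|) =ᵐ[ν] 0 :=
    (integral_eq_zero_iff_of_nonneg (fun x => abs_nonneg _) (h65_integrable_abs_sub ν hmean)).mp h.symm
  have h1 : ∀ᵐ x ∂ν, x = 1 := by
    filter_upwards [h0] with x hx
    have : |x - 1| = 0 := hx
    have := abs_eq_zero.mp this
    linarith
  have hnull : ν ({1}ᶜ : Set ℝ) = 0 := by
    rw [ae_iff] at h1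
    exact h1
  have hone : ν ({1} : Set ℝ) = 1 := (prob_compl_eq_zero_iff (measurableSet_singleton 1)).mp hnull
  apply hnc 1
  ext s hs
  rw [Measure.dirac_apply' _ hs]
  by_cases h1s : (1:ℝ) ∈ s
  · rw [Set.indicator_of_mem h1s]
    apply le_antisymm prob_le_one
    show (1 : ENNReal) ≤ ν s
    rw [← hone]
    exact measure_mono (Set.singleton_subset_iff.mpr h1s)
  · rw [Set.indicator_of_notMem h1s]
    refine measure_mono_null ?_ hnull
    intro x hx
    simp only [Set.mem_compl_iff, Set.mem_singleton_iff]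
    rintro rfl
    exact h1s hx

end Law


section Tree

/-- The set of non-root vertices on the root path of `v` (the nonempty suffixes of the list). -/
def h65_sfx : List ℕ → Finset (List ℕ)
  | [] => ∅
  | a :: v => insert (a :: v) (h65_sfx v)

theorem h65_sfx_len (v u : List ℕ) (hu : u ∈ h65_sfx v) : u ≠ [] ∧ u.length ≤ v.length := by
  induction v with
  | nil => simp [h65_sfx] at hu
  | cons a v ih =>
    simp only [h65_sfx, Finset.mem_insert] at hu
    rcases hu with rfl | hu
    · simp
    · have := ih hu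
      refine ⟨this.1, ?_⟩
      simp only [List.length_cons]
      omega

theorem h65_cons_notMem (a : ℕ) (v : List ℕ) : (a :: v) ∉ h65_sfx v := by
  intro h
  have := (h65_sfx_len v _ h).2
  simp at this

variable {Ω : Type} [MeasurableSpace Ω] (ν : Measure ℝ) [IsProbabilityMeasure ν]
  (μ : Measure Ω) [IsProbabilityMeasure μ] (W : List ℕ → Ω → ℝ)

theorem h65_pathProduct_eq (v : List ℕ) : pathProduct W v = ∏ u ∈ h65_sfx v, W u := by
  induction v with
  | nil => funext ω; simp [pathProduct, h65_sfx]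
  | cons a v ih =>
    funext ω
    simp only [pathProduct, h65_sfx]
    rw [Finset.prod_insert (h65_cons_notMem a v), ih]
    simp [mul_comm]

theorem h65_path_measurable (hmeas : ∀ v, Measurable (W v)) (v : List ℕ) :
    Measurable (pathProduct W v) := by
  induction v with
  | nil => exact measurable_const
  | cons a v ih => exact ih.mul (hmeas _)

theorem h65_indep_path_cons (hmeas : ∀ v, Measurable (W v)) (hind : iIndepFun W μ) (a : ℕ)
    (v : List ℕ) : IndepFun (pathProduct W v) (W (a :: v)) μ := by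
  rw [h65_pathProduct_eq]
  exact hind.indepFun_finsetProd_of_notMem hmeas (h65_cons_notMem a v)

theorem h65_indep_path_sum (hmeas : ∀ v, Measurable (W v)) (hind : iIndepFun W μ) (v : List ℕ)
    (B : Finset ℕ) :
    IndepFun (pathProduct W v) (fun ω => ∑ n ∈ B, (W (n :: v) ω - 1)) μ := by
  classical
  set T : Finset (List ℕ) := B.image (fun n => n :: v) with hT
  have hdisj : Disjoint (h65_sfx v) T := by
    rw [Finset.disjoint_left]
    intro u hu huT
    rw [hT, Finset.mem_image] at huT
    obtain ⟨n, -, rfl⟩ := huT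
    exact h65_cons_notMem n v hu
  have h := hind.indepFun_finset (h65_sfx v) T hdisj hmeas
  have hφ : Measurable (fun g : (h65_sfx v) → ℝ => ∏ i, g i) := by fun_prop
  have hψ : Measurable (fun g : T → ℝ => ∑ i, (g i - 1)) := by fun_prop
  have h2 := h.comp hφ hψ
  have e1 : pathProduct W v = (fun g : (h65_sfx v) → ℝ => ∏ i, g i) ∘ (fun a (i : h65_sfx v) => W i a) := by
    funext ω
    rw [h65_pathProduct_eq]
    simp only [Function.comp, Finset.prod_apply]
    exact (Finset.prod_coe_sort (h65_sfx v) (fun u => W u ω)).symm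
  have e2 : (fun ω => ∑ n ∈ B, (W (n :: v) ω - 1)) =
      (fun g : T → ℝ => ∑ i, (g i - 1)) ∘ (fun a (i : T) => W i a) := by
    funext ω
    simp only [Function.comp]
    rw [Finset.sum_coe_sort T (fun u => W u ω - 1), hT, Finset.sum_image]
    intro x _ y _ hxy
    exact (List.cons.inj hxy).1
  rw [e1, e2]
  exact h2

/-- Product formula for absolute moments of independent variables. -/
theorem h65_abs_mul (X Y : Ω → ℝ) (hXY : IndepFun X Y μ) (hX : Measurable X) (hY : Measurable Y) :
    ∫ ω, |X ω * Y ω| ∂μ = (∫ ω, |X ω| ∂μ) * ∫ ω, |Y ω| ∂μ := by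
  simp_rw [abs_mul]
  exact hXY.integral_fun_comp_mul_comp (f := fun x : ℝ => |x|) (g := fun x : ℝ => |x|)
    hX.aemeasurable hY.aemeasurable
    continuous_abs.aestronglyMeasurable continuous_abs.aestronglyMeasurable

variable (hmeas : ∀ v, Measurable (W v)) (hlaw : ∀ v, v ≠ [] → Measure.map (W v) μ = ν)

include hmeas hlaw

theorem h65_transfer_integrable (g : ℝ → ℝ) (hg : Measurable g) (h : Integrable g ν)
    (u : List ℕ) (hu : u ≠ []) : Integrable (fun ω => g (W u ω)) μ := by
  rw [← hlaw u hu] at h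
  exact (integrable_map_measure hg.aestronglyMeasurable (hmeas u).aemeasurable).mp h

theorem h65_transfer_integral (g : ℝ → ℝ) (hg : Measurable g)
    (u : List ℕ) (hu : u ≠ []) : ∫ ω, g (W u ω) ∂μ = ∫ x, g x ∂ν := by
  have := integral_map (μ := μ) (hmeas u).aemeasurable (f := g) hg.aestronglyMeasurable
  rw [hlaw u hu] at this
  exact this.symm

theorem h65_W_ae_pos (hpos : ν (Set.Ioi 0) = 1) (u : List ℕ) (hu : u ≠ []) :
    ∀ᵐ ω ∂μ, 0 < W u ω := by
  have h := h65_ae_pos ν hpos
  rw [← hlaw u hu] at h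
  exact ae_of_ae_map (hmeas u).aemeasurable h

theorem h65_W_abs (hpos : ν (Set.Ioi 0) = 1) (hmean : ∫ x, x ∂ν = 1) (u : List ℕ) (hu : u ≠ []) :
    ∫ ω, |W u ω| ∂μ = 1 := by
  rw [h65_transfer_integral ν μ W hmeas hlaw (fun x => |x|) measurable_id.abs u hu, ← hmean]
  apply integral_congr_ae
  filter_upwards [h65_ae_pos ν hpos] with x hx
  exact abs_of_pos hx

theorem h65_W_integrable (hmean : ∫ x, x ∂ν = 1) (u : List ℕ) (hu : u ≠ []) :
    Integrable (W u) μ :=
  h65_transfer_integrable ν μ W hmeas hlaw (fun x => x) measurable_id (h65_integrable_id ν hmean) u hu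


variable (hind : iIndepFun W μ)

include hind

theorem h65_path_integrable (hmean : ∫ x, x ∂ν = 1) (v : List ℕ) :
    Integrable (pathProduct W v) μ := by
  induction v with
  | nil => exact integrable_const 1
  | cons a v ih =>
    have h := (h65_indep_path_cons μ W hmeas hind a v).integrable_mul ih
      (h65_W_integrable ν μ W hmeas hlaw hmean (a :: v) (by simp))
    exact h

theorem h65_path_norm (hpos : ν (Set.Ioi 0) = 1) (hmean : ∫ x, x ∂ν = 1) (v : List ℕ) :
    ∫ ω, |pathProduct W v ω| ∂μ = 1 := by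
  induction v with
  | nil => simp [pathProduct]
  | cons a v ih =>
    have h := h65_abs_mul μ (pathProduct W v) (W (a :: v)) (h65_indep_path_cons μ W hmeas hind a v)
      (h65_path_measurable W hmeas v) (hmeas _)
    have e : (fun ω => |pathProduct W (a :: v) ω|) = fun ω => |pathProduct W v ω * W (a :: v) ω| := rfl
    rw [e, h, ih, h65_W_abs ν μ W hmeas hlaw hpos hmean (a :: v) (by simp), mul_one]

theorem h65_diff_norm (hpos : ν (Set.Ioi 0) = 1) (hmean : ∫ x, x ∂ν = 1) (v : List ℕ) (n : ℕ) :
    ∫ ω, |pathProduct W (n :: v) ω - pathProduct W v ω| ∂μ = ∫ x, |x - 1| ∂ν := by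
  have hi : IndepFun (pathProduct W v) (fun ω => W (n :: v) ω - 1) μ :=
    (h65_indep_path_cons μ W hmeas hind n v).comp (φ := fun x : ℝ => x) (ψ := fun x : ℝ => x - 1)
      measurable_id (measurable_id.sub_const 1)
  have h := h65_abs_mul μ (pathProduct W v) (fun ω => W (n :: v) ω - 1) hi
    (h65_path_measurable W hmeas v) ((hmeas _).sub_const 1)
  have e : (fun ω => |pathProduct W (n :: v) ω - pathProduct W v ω|) =
      fun ω => |pathProduct W v ω * (W (n :: v) ω - 1)| := by
    funext ω
    simp only [pathProduct]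
    congr 1
    ring
  rw [e, h, h65_path_norm ν μ W hmeas hlaw hind hpos hmean v, one_mul]
  exact h65_transfer_integral ν μ W hmeas hlaw (fun x => |x - 1|) (measurable_id.sub_const 1).abs
    (n :: v) (by simp)


theorem h65_sum_norm (hpos : ν (Set.Ioi 0) = 1) (hmean : ∫ x, x ∂ν = 1)
    (hm2 : Integrable (fun x : ℝ => x ^ 2) ν) (v : List ℕ) (B : Finset ℕ) :
    ∫ ω, |∑ n ∈ B, (pathProduct W (n :: v) ω - pathProduct W v ω)| ∂μ ≤
      ((∫ x, (x - 1) ^ 2 ∂ν + 1) / 2) * Real.sqrt B.card := by
  set Z : Ω → ℝ := fun ω => ∑ n ∈ B, (W (n :: v) ω - 1) with hZ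
  have hi : IndepFun (pathProduct W v) Z μ := h65_indep_path_sum μ W hmeas hind v B
  have hZmeas : Measurable Z := Finset.measurable_sum _ (fun n _ => (hmeas _).sub_const 1)
  have h := h65_abs_mul μ (pathProduct W v) Z hi (h65_path_measurable W hmeas v) hZmeas
  have e : (fun ω => |∑ n ∈ B, (pathProduct W (n :: v) ω - pathProduct W v ω)|) =
      fun ω => |pathProduct W v ω * Z ω| := by
    funext ω
    congr 1
    simp only [hZ, pathProduct]
    rw [Finset.mul_sum]
    apply Finset.sum_congr rfl
    intro n _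
    ring
  rw [e, h, h65_path_norm ν μ W hmeas hlaw hind hpos hmean v, one_mul]
  set σ2 := ∫ x, (x - 1) ^ 2 ∂ν with hσ2
  have hY2 : ∀ n, MemLp (fun ω => W (n :: v) ω - 1) 2 μ := by
    intro n
    rw [memLp_two_iff_integrable_sq ((hmeas _).sub_const 1).aestronglyMeasurable]
    exact h65_transfer_integrable ν μ W hmeas hlaw (fun x => (x - 1) ^ 2) (by fun_prop)
      (h65_integrable_sq_sub ν hmean hm2) (n :: v) (by simp)
  have hYint : ∀ n, ∫ ω, (W (n :: v) ω - 1) ∂μ = 0 := by
    intro n
    rw [h65_transfer_integral ν μ W hmeas hlaw (fun x => x - 1) (by fun_prop) (n :: v) (by simp)]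
    rw [integral_sub (h65_integrable_id ν hmean) (integrable_const 1), hmean]
    simp
  have hYsq : ∀ n, ∫ ω, (W (n :: v) ω - 1) ^ 2 ∂μ = σ2 := fun n =>
    h65_transfer_integral ν μ W hmeas hlaw (fun x => (x - 1) ^ 2) (by fun_prop) (n :: v) (by simp)
  have hpair : Set.Pairwise (B : Set ℕ) fun i j =>
      IndepFun (fun ω => W (i :: v) ω - 1) (fun ω => W (j :: v) ω - 1) μ := by
    intro i _ j _ hij
    have hne : (i :: v) ≠ (j :: v) := fun h => hij (List.cons.inj h).1
    exact (hind.indepFun hne).comp (φ := fun x : ℝ => x - 1) (ψ := fun x : ℝ => x - 1)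
      (measurable_id.sub_const 1) (measurable_id.sub_const 1)
  have hvar := IndepFun.variance_sum (X := fun n ω => W (n :: v) ω - 1) (s := B)
    (fun i _ => hY2 i) hpair
  have hZeq : (∑ n ∈ B, fun ω => W (n :: v) ω - 1) = Z := by
    funext ω
    simp [hZ, Finset.sum_apply]
  rw [hZeq] at hvar
  have hZint0 : ∫ ω, Z ω ∂μ = 0 := by
    simp only [hZ]
    rw [integral_finsetSum _ (fun n _ => (hY2 n).integrable one_le_two)]
    exact Finset.sum_eq_zero (fun n _ => hYint n)
  rw [variance_of_integral_eq_zero hZmeas.aemeasurable hZint0] at hvar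
  have hvar2 : ∫ ω, Z ω ^ 2 ∂μ = B.card * σ2 := by
    rw [hvar]
    rw [Finset.sum_congr rfl (fun n _ => variance_of_integral_eq_zero
      ((hmeas (n :: v)).sub_const 1).aemeasurable (hYint n))]
    simp [hYsq]
  have hZ2 : MemLp Z 2 μ := by
    rw [← hZeq]
    exact memLp_finsetSum' _ (fun n _ => hY2 n)
  have hZsqint : Integrable (fun ω => Z ω ^ 2) μ := hZ2.integrable_sq
  have hZabs : Integrable (fun ω => |Z ω|) μ := (hZ2.integrable one_le_two).abs
  rcases Finset.eq_empty_or_nonempty B with hB | hB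
  · subst hB
    simp [hZ]
  · have hcard : (0:ℝ) < B.card := by exact_mod_cast Finset.card_pos.mpr hB
    set t := Real.sqrt B.card with ht
    have htpos : 0 < t := Real.sqrt_pos.mpr hcard
    have htt : t * t = B.card := Real.mul_self_sqrt hcard.le
    have hpt : ∀ ω, |Z ω| ≤ (Z ω ^ 2 / t + t) / 2 := by
      intro ω
      have h1 : 0 ≤ (|Z ω| - t) ^ 2 := sq_nonneg _
      have h2 : Z ω ^ 2 / t + t = (Z ω ^ 2 + t * t) / t := by field_simp
      rw [h2, le_div_iff₀ two_pos, le_div_iff₀ htpos]
      nlinarith [sq_abs (Z ω)]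
    calc ∫ ω, |Z ω| ∂μ ≤ ∫ ω, (Z ω ^ 2 / t + t) / 2 ∂μ :=
          integral_mono hZabs (((hZsqint.div_const t).add (integrable_const t)).div_const 2) hpt
      _ = (B.card * σ2 / t + t) / 2 := by
          rw [integral_div, integral_add (hZsqint.div_const t) (integrable_const t), integral_div,
            hvar2]
          simp
      _ = (σ2 + 1) / 2 * t := by
          rw [← htt]
          field_simp

end Tree

end Crest.Agent.S0169
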