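import Mathlib
import Crest.Prelude.Def_AsymptoticConvexity

/-!
# S0169 (row 125) — abstract tree lemma (helper65)

`h65_tree_not_auc`: a real Banach space containing a countably branching tree `x : List ℕ → V`
of vectors with norms in `[θ₀, K]`, whose child differences `x (n :: v) - x v` have norm `≥ δ > 0`
and satisfy the square estimate `‖∑_{n ∈ B} (x (n :: v) - x v)‖ ≤ C √|B|`, admits no equivalent
asymptotically uniformly convex norm.
-/

set_option autoImplicit false

namespace Crest.Agent.S0169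

open Crest.AnalysisR Filter Topology

theorem h65_inv_mul_sqrt (n : ℕ) : ((n : ℝ))⁻¹ * Real.sqrt n = (Real.sqrt n)⁻¹ := by
  rcases Nat.eq_zero_or_pos n with h | h
  · subst h; simp
  · have hn : (0:ℝ) < n := by exact_mod_cast h
    have hs : 0 < Real.sqrt n := Real.sqrt_pos.mpr hn
    have hss : Real.sqrt n * Real.sqrt n = n := Real.mul_self_sqrt hn.le
    field_simp
    nlinarith

/-- In a finite-dimensional real normed space, a sequence whose finite sums satisfy the square
estimate `‖∑_{n∈B} q n‖ ≤ C √|B|` has terms of arbitrarily small norm. -/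
theorem h65_small_term {Q : Type*} [NormedAddCommGroup Q] [NormedSpace ℝ Q] [FiniteDimensional ℝ Q]
    (q : ℕ → Q) (C : ℝ) (hq : ∀ B : Finset ℕ, ‖∑ n ∈ B, q n‖ ≤ C * Real.sqrt B.card)
    (ε : ℝ) (hε : 0 < ε) : ∃ n, ‖q n‖ < ε := by
  by_contra hcon
  simp only [not_exists, not_lt] at hcon
  have hb : ∀ n, ‖q n‖ ≤ C := by
    intro n
    have := hq {n}
    simpa using this
  have : ProperSpace Q := FiniteDimensional.proper_real Q
  obtain ⟨l, -, φ, hφ, hlim⟩ := tendsto_subseq_of_bounded
    (Metric.isBounded_closedBall (x := (0:Q)) (r := C))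
    (fun n => by simpa using hb n : ∀ n, q n ∈ Metric.closedBall (0:Q) C)
  have hl : ε ≤ ‖l‖ := by
    have : Tendsto (fun n => ‖q (φ n)‖) atTop (𝓝 ‖l‖) := (continuous_norm.tendsto l).comp hlim
    exact ge_of_tendsto' this (fun n => hcon (φ n))
  have hces := hlim.cesaro_smul
  have hzero : Tendsto (fun n : ℕ => (n⁻¹ : ℝ) • ∑ i ∈ Finset.range n, (q ∘ φ) i) atTop (𝓝 0) := by
    rw [tendsto_zero_iff_norm_tendsto_zero]
    have hbound : ∀ n : ℕ, ‖(n⁻¹ : ℝ) • ∑ i ∈ Finset.range n, (q ∘ φ) i‖ ≤ C * (Real.sqrt n)⁻¹ := by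
      intro n
      have hsum : ∑ i ∈ Finset.range n, (q ∘ φ) i = ∑ m ∈ (Finset.range n).image φ, q m := by
        rw [Finset.sum_image (fun a _ b _ h => hφ.injective h)]
        rfl
      have hcard : ((Finset.range n).image φ).card = n := by
        rw [Finset.card_image_of_injective _ hφ.injective, Finset.card_range]
      have h1 := hq ((Finset.range n).image φ)
      rw [hcard] at h1
      rw [norm_smul, hsum, Real.norm_eq_abs, abs_of_nonneg (by positivity)]
      calc (n:ℝ)⁻¹ * ‖∑ m ∈ (Finset.range n).image φ, q m‖ ≤ (n:ℝ)⁻¹ * (C * Real.sqrt n) :=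
            mul_le_mul_of_nonneg_left h1 (by positivity)
        _ = C * ((n:ℝ)⁻¹ * Real.sqrt n) := by ring
        _ = C * (Real.sqrt n)⁻¹ := by rw [h65_inv_mul_sqrt]
    have htend : Tendsto (fun n : ℕ => C * (Real.sqrt n)⁻¹) atTop (𝓝 0) := by
      have h1 : Tendsto (fun n : ℕ => (Real.sqrt n)⁻¹) atTop (𝓝 0) :=
        tendsto_inv_atTop_zero.comp (Real.tendsto_sqrt_atTop.comp tendsto_natCast_atTop_atTop)
      simpa using h1.const_mul C
    exact squeeze_zero (fun n => norm_nonneg _) hbound htend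
  have h0 : l = 0 := tendsto_nhds_unique hces hzero
  rw [h0, norm_zero] at hl
  linarith

/-- For a closed subspace `S` of finite codimension and a sequence `d` satisfying the square
estimate, some `d n` is `ε`-close to `S`. -/
theorem h65_near_sub {V : Type*} [NormedAddCommGroup V] [NormedSpace ℝ V] (S : Submodule ℝ V)
    (hS : IsClosed (S : Set V)) (hfin : FiniteDimensional ℝ (V ⧸ S)) (d : ℕ → V) (C : ℝ)
    (hd : ∀ B : Finset ℕ, ‖∑ n ∈ B, d n‖ ≤ C * Real.sqrt B.card) (ε : ℝ) (hε : 0 < ε) :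
    ∃ n, ∃ f ∈ S, ‖d n - f‖ < ε := by
  have : IsClosed (S : Set V) := hS
  have hq : ∀ B : Finset ℕ, ‖∑ n ∈ B, (Submodule.Quotient.mk (d n) : V ⧸ S)‖ ≤ C * Real.sqrt B.card := by
    intro B
    have : ∑ n ∈ B, (Submodule.Quotient.mk (d n) : V ⧸ S) = Submodule.Quotient.mk (∑ n ∈ B, d n) := by
      rw [← Submodule.mkQ_apply, map_sum]; rfl
    rw [this]
    exact (Submodule.Quotient.norm_mk_le S _).trans (hd B)
  obtain ⟨n, hn⟩ := h65_small_term (fun n => (Submodule.Quotient.mk (d n) : V ⧸ S)) C hq (ε / 2) (by positivity)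
  obtain ⟨m, hm, hmn⟩ := Submodule.Quotient.norm_mk_lt (Submodule.Quotient.mk (d n) : V ⧸ S) (by positivity : (0:ℝ) < ε / 2)
  refine ⟨n, d n - m, ?_, ?_⟩
  · have := (Submodule.Quotient.eq S).mp hm
    have h2 : d n - m = -(m - d n) := by abel
    rw [h2]
    exact S.neg_mem this
  · have : d n - (d n - m) = m := by abel
    rw [this]
    linarith

/-- **Abstract tree lemma.** A real Banach space containing a countably branching tree of vectors
with norms in `[θ₀, K]`, child differences of norm `≥ δ`, and the square estimate for the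
differences at every vertex, has no equivalent asymptotically uniformly convex norm. -/
theorem h65_tree_not_auc {V : Type} [NormedAddCommGroup V] [NormedSpace ℝ V] (hc : CompleteSpace V)
    (x : List ℕ → V) (θ₀ K δ C : ℝ) (hθ₀ : 0 < θ₀) (hδ : 0 < δ)
    (hlo : ∀ v, θ₀ ≤ ‖x v‖) (hhi : ∀ v, ‖x v‖ ≤ K)
    (hd : ∀ v n, δ ≤ ‖x (n :: v) - x v‖)
    (hsq : ∀ v (B : Finset ℕ), ‖∑ n ∈ B, (x (n :: v) - x v)‖ ≤ C * Real.sqrt B.card)
    (N : V → ℝ) (hN : (RealBanach.mk V inferInstance inferInstance hc).IsEquivNorm N) :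
    ¬ (RealBanach.mk V inferInstance inferInstance hc).IsAUC N := by
  intro hAUC
  obtain ⟨hsub, hhom, a, b, ha, hab⟩ := hN
  have hK : 0 < K := lt_of_lt_of_le hθ₀ ((hlo []).trans (hhi []))
  have hb : 0 < b := by
    have h1 := hab (x [])
    have hpos : 0 < ‖x []‖ := lt_of_lt_of_le hθ₀ (hlo [])
    by_contra hb
    have h2 : b * ‖x []‖ ≤ 0 := mul_nonpos_of_nonpos_of_nonneg (not_lt.mp hb) hpos.le
    nlinarith [h1.1, h1.2, mul_pos ha hpos]
  have hneg : ∀ y : V, N (-y) = N y := by
    intro y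
    have := hhom (-1) y
    simpa using this
  set t : ℝ := a * δ / (2 * b * K) with ht
  have htpos : 0 < t := by positivity
  obtain ⟨c, hc0, hcx⟩ := hAUC t htpos
  -- one step up the tree
  have hstep : ∀ v, ∃ n, (1 + c / 2) * N (x v) ≤ N (x (n :: v)) := by
    intro v
    have hNzlo : a * θ₀ ≤ N (x v) := le_trans (mul_le_mul_of_nonneg_left (hlo v) ha.le) (hab (x v)).1
    have hNz : 0 < N (x v) := lt_of_lt_of_le (mul_pos ha hθ₀) hNzlo
    have hNzle : N (x v) ≤ b * K := (hab (x v)).2.trans (mul_le_mul_of_nonneg_left (hhi v) hb.le)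
    have hunit : N ((N (x v))⁻¹ • x v) = 1 := by
      rw [hhom, abs_of_pos (inv_pos.mpr hNz), inv_mul_cancel₀ hNz.ne']
    obtain ⟨F, ⟨S, hSF, hFcl, hfin⟩, hF⟩ := hcx _ hunit
    set ε : ℝ := min (a * δ / (2 * b)) (c * a * θ₀ / (2 * b)) with hε
    have hεpos : 0 < ε := lt_min (by positivity) (by positivity)
    have hScl : IsClosed (S : Set V) := by rw [hSF]; exact hFcl
    obtain ⟨n, f, hfS, hnf⟩ := h65_near_sub S hScl hfin (fun n => x (n :: v) - x v) C (hsq v) ε hεpos
    refine ⟨n, ?_⟩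
    have hNd : a * δ ≤ N (x (n :: v) - x v) :=
      le_trans (mul_le_mul_of_nonneg_left (hd v n) ha.le) (hab _).1
    have hNdf : N (x (n :: v) - x v - f) ≤ b * ε :=
      (hab _).2.trans (mul_le_mul_of_nonneg_left hnf.le hb.le)
    have hbε1 : b * ε ≤ a * δ / 2 := by
      have h1 : ε ≤ a * δ / (2 * b) := min_le_left _ _
      calc b * ε ≤ b * (a * δ / (2 * b)) := mul_le_mul_of_nonneg_left h1 hb.le
        _ = a * δ / 2 := by field_simp
    have hbε2 : b * ε ≤ c * a * θ₀ / 2 := by
      have h1 : ε ≤ c * a * θ₀ / (2 * b) := min_le_right _ _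
      calc b * ε ≤ b * (c * a * θ₀ / (2 * b)) := mul_le_mul_of_nonneg_left h1 hb.le
        _ = c * a * θ₀ / 2 := by field_simp
    have hNf : a * δ / 2 ≤ N f := by
      have h1 : N (x (n :: v) - x v) ≤ N f + N (x (n :: v) - x v - f) := by
        have h2 := hsub f (x (n :: v) - x v - f)
        have h3 : f + (x (n :: v) - x v - f) = x (n :: v) - x v := by abel
        rwa [h3] at h2
      linarith
    have hNfpos : 0 < N f := lt_of_lt_of_le (by positivity) hNf
    -- the key inequality `N (x v + f) ≥ (1 + c) N (x v)`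
    have hkey : (1 + c) * N (x v) ≤ N (x v + f) := by
      set τ : ℝ := N f / N (x v) with hτ
      have hτt : t ≤ τ := by
        rw [hτ, ht, div_le_div_iff₀ (by positivity) hNz]
        have h1 : a * δ * N (x v) ≤ a * δ * (b * K) :=
          mul_le_mul_of_nonneg_left hNzle (by positivity)
        have h2 : a * δ / 2 * (2 * b * K) ≤ N f * (2 * b * K) :=
          mul_le_mul_of_nonneg_right hNf (by positivity)
        nlinarith
      have hτpos : 0 < τ := lt_of_lt_of_le htpos hτt
      have hyF : (N f)⁻¹ • f ∈ F := by rw [← hSF]; exact S.smul_mem _ hfS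
      have hy1 : N ((N f)⁻¹ • f) = 1 := by
        rw [hhom, abs_of_pos (inv_pos.mpr hNfpos), inv_mul_cancel₀ hNfpos.ne']
      have h1 := hF _ hyF hy1
      have hr0 : 0 ≤ t / τ := by positivity
      have hr1 : t / τ ≤ 1 := (div_le_one hτpos).mpr hτt
      have e : (N (x v))⁻¹ • x v + t • ((N f)⁻¹ • f)
          = (1 - t / τ) • ((N (x v))⁻¹ • x v) + (t / τ) • ((N (x v))⁻¹ • (x v + f)) := by
        have hcoef : t * (N f)⁻¹ = t / τ * (N (x v))⁻¹ := by
          rw [hτ]; field_simp
        rw [smul_smul, hcoef, smul_add, smul_add, smul_smul, smul_smul, smul_smul]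
        rw [← add_assoc, ← add_smul]
        congr 2
        ring
      have hA : N ((1 - t / τ) • ((N (x v))⁻¹ • x v)) = 1 - t / τ := by
        rw [hhom, hunit, abs_of_nonneg (by linarith : (0:ℝ) ≤ 1 - t / τ), mul_one]
      have hB : N ((t / τ) • ((N (x v))⁻¹ • (x v + f)))
          = t / τ * ((N (x v))⁻¹ * N (x v + f)) := by
        rw [hhom, hhom, abs_of_nonneg hr0, abs_of_pos (inv_pos.mpr hNz)]
      have hconv : N ((N (x v))⁻¹ • x v + t • ((N f)⁻¹ • f))
          ≤ (1 - t / τ) + t / τ * ((N (x v))⁻¹ * N (x v + f)) := by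
        rw [e]
        refine (hsub _ _).trans ?_
        rw [hA, hB]
      -- so `1 + c ≤ (1 - r) + r * (N(z+f)/N z)` with `r = t/τ ∈ (0,1]`
      have h2 : 1 + c ≤ (1 - t / τ) + t / τ * ((N (x v))⁻¹ * N (x v + f)) := by linarith
      have hrpos : 0 < t / τ := by positivity
      have h3 : 1 + c ≤ (N (x v))⁻¹ * N (x v + f) := by
        by_contra hlt
        have hlt' : (N (x v))⁻¹ * N (x v + f) < 1 + c := not_le.mp hlt
        have : t / τ * ((N (x v))⁻¹ * N (x v + f)) < t / τ * (1 + c) :=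
          mul_lt_mul_of_pos_left hlt' hrpos
        nlinarith
      have h4 : (1 + c) * N (x v) ≤ (N (x v))⁻¹ * N (x v + f) * N (x v) :=
        mul_le_mul_of_nonneg_right h3 hNz.le
      have h5 : (N (x v))⁻¹ * N (x v + f) * N (x v) = N (x v + f) := by
        field_simp
      linarith
    have hfin2 : N (x v + f) ≤ N (x (n :: v)) + N (x (n :: v) - x v - f) := by
      have h2 := hsub (x (n :: v)) (-(x (n :: v) - x v - f))
      have h3 : x (n :: v) + -(x (n :: v) - x v - f) = x v + f := by abel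
      rw [h3, hneg] at h2
      exact h2
    nlinarith
  -- iterate
  have hiter : ∀ m : ℕ, ∃ v, (1 + c / 2) ^ m * (a * θ₀) ≤ N (x v) := by
    intro m
    induction m with
    | zero =>
      exact ⟨[], by simpa using le_trans (mul_le_mul_of_nonneg_left (hlo []) ha.le) (hab _).1⟩
    | succ m ih =>
      obtain ⟨v, hv⟩ := ih
      obtain ⟨n, hn⟩ := hstep v
      refine ⟨n :: v, ?_⟩
      calc (1 + c / 2) ^ (m + 1) * (a * θ₀) = (1 + c / 2) * ((1 + c / 2) ^ m * (a * θ₀)) := by ring
        _ ≤ (1 + c / 2) * N (x v) := mul_le_mul_of_nonneg_left hv (by positivity)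
        _ ≤ _ := hn
  obtain ⟨m, hm⟩ := pow_unbounded_of_one_lt (b * K / (a * θ₀)) (by linarith : (1:ℝ) < 1 + c / 2)
  obtain ⟨v, hv⟩ := hiter m
  have hle : N (x v) ≤ b * K := (hab (x v)).2.trans (mul_le_mul_of_nonneg_left (hhi v) hb.le)
  have hpos : 0 < a * θ₀ := mul_pos ha hθ₀
  have h1 : b * K < (1 + c / 2) ^ m * (a * θ₀) := by
    rwa [div_lt_iff₀ hpos] at hm
  linarith

/-- In a finite-dimensional space the given norm is (vacuously) asymptotically uniformly convex. -/
theorem h65_auc_of_finiteDimensional {V : Type} [NormedAddCommGroup V] [NormedSpace ℝ V]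
    (hc : CompleteSpace V) (hfd : FiniteDimensional ℝ V) :
    (RealBanach.mk V inferInstance inferInstance hc).IsAUC (fun x : V => ‖x‖) := by
  intro t _
  refine ⟨1, one_pos, fun x _ => ⟨{0}, ⟨⊥, by simp, isClosed_singleton, inferInstance⟩, ?_⟩⟩
  intro y hy hy1
  rw [Set.mem_singleton_iff] at hy
  have h1 : ‖y‖ = 1 := hy1
  rw [hy, norm_zero] at h1
  exact absurd h1 (by norm_num)

/-- The given norm is an equivalent norm. -/
theorem h65_isEquivNorm_norm {V : Type} [NormedAddCommGroup V] [NormedSpace ℝ V]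
    (hc : CompleteSpace V) :
    (RealBanach.mk V inferInstance inferInstance hc).IsEquivNorm (fun x : V => ‖x‖) := by
  refine ⟨fun x y => norm_add_le x y, fun a x => ?_, 1, 1, one_pos, fun x => ?_⟩
  · simp [norm_smul]
  · simp

end Crest.Agent.S0169
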